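import Vale.Agent.P356F.Main
import Vale.Agent.P356F.Stmt
import Vale.Agent.P356.Fin

namespace Vale.Agent.Results.P356.Both

open Matrix Vale.Agent.P356 Vale.Agent.P356F

theorem result (q R : ℕ) (hq : 2 ≤ q) (J : ℝ) (hJ : 0 < J) :
    (∀ γ : ℝ, 0 < γ →
      ∃ (l : ℕ) (C : ℝ), ∀ L : ℕ, 2 ≤ L → ∀ h : Finset (Fin L × Fin L) → Op L q,
        Admissible L q R J h → ∀ (E0 Δ : ℝ) (Ω : (Fin L × Fin L → Fin q) → ℂ), 0 < Δ →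
        HasGap (ham L q R h) E0 Δ Ω → FrustrationFree L q R h Ω → LocalGap L q R h γ l →
        ∀ A : Finset (Fin L × Fin L), entropy A Ω ≤ C * (bdry A : ℝ)) ∧
    (∀ Δ : ℝ, 0 < Δ →
      ∃ C c : ℝ, 0 < c ∧ ∀ L : ℕ, 2 ≤ L → ∀ h : Finset (Fin L × Fin L) → Op L q,
        Admissible L q R J h → ∀ (E0 : ℝ) (Ω : (Fin L × Fin L → Fin q) → ℂ),
        HasGap (ham L q R h) E0 Δ Ω →
        ∀ A : Finset (Fin L × Fin L), entropy A Ω ≤ C * (bdry A : ℝ) ^ (2 - c)) := by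
  have : NeZero q := ⟨by omega⟩
  refine ⟨fun γ hγ => ?_, fun Δ hΔ => ?_⟩
  · obtain ⟨l, C, H⟩ := area_ff q R J γ hJ.le hγ
    exact ⟨l, C, fun L _ => H L⟩
  · obtain ⟨C, c, hc, H⟩ := subvolume q R J Δ hJ.le hΔ
    exact ⟨C, c, hc, fun L _ h hh E0 Ω hg A =>
      H L h Ω E0 (gapped_of h hh Ω hg.1 hg.2.1 hg.2.2) A⟩

end Vale.Agent.Results.P356.Both
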