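import Vale.Agent.P356F.Main
import Vale.Agent.P356F.Stmt

namespace Vale.Agent.Results.P356.FFArea

open Matrix Vale.Agent.P356 Vale.Agent.P356F

theorem result (q R : ℕ) (hq : 2 ≤ q) (J γ : ℝ) (hJ : 0 < J) (hγ : 0 < γ) :
    ∃ (l : ℕ) (C : ℝ), ∀ L : ℕ, 2 ≤ L → ∀ h : Finset (Fin L × Fin L) → Op L q,
      Admissible L q R J h → ∀ (E0 Δ : ℝ) (Ω : (Fin L × Fin L → Fin q) → ℂ), 0 < Δ →
      HasGap (ham L q R h) E0 Δ Ω → FrustrationFree L q R h Ω → LocalGap L q R h γ l →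
      ∀ A : Finset (Fin L × Fin L), entropy A Ω ≤ C * (bdry A : ℝ) := by
  have : NeZero q := ⟨by omega⟩
  obtain ⟨l, C, H⟩ := area_ff q R J γ hJ.le hγ
  exact ⟨l, C, fun L _ => H L⟩

end Vale.Agent.Results.P356.FFArea
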