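import Vale.Agent.P356E.Main

namespace Vale.Agent.Results.P356.NearArea

open Matrix Vale.Agent.P356

theorem result (q R : ℕ) (hq : 2 ≤ q) (J Δ : ℝ) (hJ : 0 < J) (hΔ : 0 < Δ) (ε : ℝ) (hε : 0 < ε) :
    ∃ C : ℝ, ∀ L : ℕ, 2 ≤ L → ∀ h : Finset (Fin L × Fin L) → Op L q,
      Admissible L q R J h → ∀ (E0 : ℝ) (Ω : (Fin L × Fin L → Fin q) → ℂ),
      HasGap (ham L q R h) E0 Δ Ω →
      ∀ A : Finset (Fin L × Fin L), entropy A Ω ≤ C * (bdry A : ℝ) ^ (1 + ε) := by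
  have : NeZero q := ⟨by omega⟩
  obtain ⟨C, H⟩ := Vale.Agent.P356E.near_area q R hJ.le hΔ hε
  exact ⟨C, fun L _ h hh E0 Ω hg A => H L Ω ⟨h, E0, hh, hg⟩ A⟩

end Vale.Agent.Results.P356.NearArea
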